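import Vale.Agent.Lib.P061.Defs

namespace Vale.Agent.Lib.P061

open Finset

/-- The complete graph on `Fin n` as a multigraph: one edge copy for every
unordered pair of distinct vertices. -/
def completeMGraph (n : ℕ) : MGraph (Fin n) {e : Sym2 (Fin n) // ¬ e.IsDiag} where
  ends := Subtype.val
  loopless := fun e => e.2

theorem completeMGraph_cut_ncard (n : ℕ) (S : Set (Fin n)) :
    ((completeMGraph n).cut S).ncard = S.ncard * (n - S.ncard) := by
  classical
  have h1 : (Subtype.val '' ((completeMGraph n).cut S) : Set (Sym2 (Fin n)))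
      = (fun p : Fin n × Fin n => s(p.1, p.2)) '' (S ×ˢ Sᶜ) := by
    ext e
    constructor
    · rintro ⟨⟨e', he'⟩, ⟨u, hu, v, hv, huv⟩, rfl⟩
      exact ⟨(u, v), ⟨hu, hv⟩, huv.symm⟩
    · rintro ⟨⟨u, v⟩, ⟨hu, hv⟩, rfl⟩
      have hne : u ≠ v := fun h => hv (h ▸ hu)
      exact ⟨⟨s(u, v), by simpa using hne⟩, ⟨u, hu, v, hv, rfl⟩, rfl⟩
  have h2 : Set.InjOn (fun p : Fin n × Fin n => s(p.1, p.2)) (S ×ˢ Sᶜ) := by
    rintro ⟨u, v⟩ ⟨hu, hv⟩ ⟨u', v'⟩ ⟨hu', hv'⟩ h
    simp only [Sym2.eq, Sym2.rel_iff', Prod.mk.injEq, Prod.swap_prod_mk] at h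
    rcases h with ⟨rfl, rfl⟩ | ⟨rfl, rfl⟩
    · rfl
    · exact absurd hu hv'
  rw [← Set.ncard_image_of_injective _ Subtype.val_injective, h1, h2.ncard_image,
    Set.ncard_prod, Set.ncard_compl]
  simp

theorem completeMGraph_edgeConnected (n : ℕ) : (completeMGraph n).EdgeConnected (n - 1) := by
  intro S hS hS'
  rw [completeMGraph_cut_ncard]
  have h1 : 1 ≤ S.ncard := by
    rw [Nat.one_le_iff_ne_zero, Ne, Set.ncard_eq_zero]
    exact hS.ne_empty
  have h2 : S.ncard < n := by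
    have := Set.ncard_lt_card (s := S) (by simpa using hS')
    simpa using this
  obtain ⟨m, hm⟩ : ∃ m, n = S.ncard + (m + 1) := ⟨n - S.ncard - 1, by omega⟩
  have h3 : n - S.ncard = m + 1 := by omega
  have h4 : n - 1 = S.ncard + m := by omega
  rw [h3, h4]
  nlinarith

end Vale.Agent.Lib.P061
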