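import Mathlib

namespace Vale.Agent.Lib.P061

/-- A loopless multigraph with vertex type `V` and edge-copy type `E`:
every edge copy `e : E` has an unordered pair `ends e` of distinct endpoints.
Parallel edges are distinct elements of `E` with the same pair of endpoints,
and each copy is counted separately. -/
structure MGraph (V E : Type) where
  ends : E → Sym2 V
  loopless : ∀ e : E, ¬ (ends e).IsDiag

variable {V E : Type}

/-- `δ_G(S)`: the set of edge copies with exactly one endpoint in `S`. -/
def MGraph.cut (G : MGraph V E) (S : Set V) : Set E :=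
  {e | ∃ u ∈ S, ∃ v ∉ S, G.ends e = s(u, v)}

/-- `G` is `k`-edge-connected: every cut `δ_G(S)` with `S` nonempty and proper
has at least `k` edge copies. -/
def MGraph.EdgeConnected (G : MGraph V E) (k : ℕ) : Prop :=
  ∀ S : Set V, S.Nonempty → S ≠ Set.univ → k ≤ (G.cut S).ncard

/-- `T` is a spanning tree of `G`: a set of `|V| - 1` edge copies of `G`
whose edges form a tree on `V`. -/
def MGraph.IsSpanningTree (G : MGraph V E) (T : Set E) : Prop :=
  T.ncard + 1 = Nat.card V ∧ (SimpleGraph.fromEdgeSet (G.ends '' T)).IsTree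

/-- The edge set `T` is `α`-thin in `G`: `|δ_T(S)| ≤ α |δ_G(S)|` for every
nonempty proper `S`, where `δ_T(S) = δ_G(S) ∩ T`. -/
def MGraph.IsThin (G : MGraph V E) (α : ℝ) (T : Set E) : Prop :=
  ∀ S : Set V, S.Nonempty → S ≠ Set.univ →
    ((G.cut S ∩ T).ncard : ℝ) ≤ α * ((G.cut S).ncard : ℝ)

end Vale.Agent.Lib.P061
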