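import Vale.Agent.Lib.P061.Main

namespace Vale.Agent.Lib.P061

/-- The star centred at `0` is a spanning tree of the complete multigraph on `Fin (m + 1)`. -/
theorem completeMGraph_exists_spanningTree (m : ℕ) :
    ∃ T : Set {e : Sym2 (Fin (m + 1)) // ¬ e.IsDiag}, (completeMGraph (m + 1)).IsSpanningTree T := by
  classical
  refine ⟨{e | (0 : Fin (m + 1)) ∈ e.1}, ?_, ?_⟩
  · -- cardinality: the star has `m` edges
    have h1 : (Subtype.val '' {e : {e : Sym2 (Fin (m + 1)) // ¬ e.IsDiag} | (0 : Fin (m + 1)) ∈ e.1})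
        = (fun i : Fin (m + 1) => s((0 : Fin (m + 1)), i)) '' {i | i ≠ 0} := by
      ext e
      constructor
      · rintro ⟨⟨e', he'⟩, h0, rfl⟩
        obtain ⟨i, rfl⟩ := Sym2.mem_iff_exists.mp h0
        refine ⟨i, ?_, rfl⟩
        intro hi
        apply he'
        simp [hi]
      · rintro ⟨i, hi, rfl⟩
        have hi' : (0 : Fin (m + 1)) ≠ i := fun h => hi h.symm
        exact ⟨⟨s(0, i), by simpa using hi'⟩, by simp, rfl⟩
    have h2 : Set.InjOn (fun i : Fin (m + 1) => s((0 : Fin (m + 1)), i)) {i | i ≠ 0} := by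
      intro i hi j hj h
      simp only [Sym2.eq, Sym2.rel_iff', Prod.mk.injEq, Prod.swap_prod_mk] at h
      rcases h with ⟨_, h⟩ | ⟨h1, h2⟩
      · exact h
      · exact absurd h1.symm hj
    have h3 : ({i : Fin (m + 1) | i ≠ 0}).ncard = m := by
      have : ({i : Fin (m + 1) | i ≠ 0}) = ({0} : Set (Fin (m + 1)))ᶜ := by
        ext i; simp
      rw [this, Set.ncard_compl]
      simp
    rw [← Set.ncard_image_of_injective _ Subtype.val_injective, h1, h2.ncard_image, h3]
    simp
  · have : SimpleGraph.fromEdgeSet ((completeMGraph (m + 1)).ends ''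
        {e : {e : Sym2 (Fin (m + 1)) // ¬ e.IsDiag} | (0 : Fin (m + 1)) ∈ e.1})
        = SimpleGraph.starGraph (0 : Fin (m + 1)) := by
      ext x y
      rw [SimpleGraph.fromEdgeSet_adj, SimpleGraph.starGraph_adj]
      constructor
      · rintro ⟨⟨⟨e, he⟩, h0, hxy⟩, hne⟩
        refine ⟨hne, ?_⟩
        have h0' : (0 : Fin (m + 1)) ∈ s(x, y) := by
          have : e = s(x, y) := hxy
          rw [← this]; exact h0
        rcases Sym2.mem_iff.mp h0' with h | h
        · exact Or.inl h.symm
        · exact Or.inr h.symm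
      · rintro ⟨hne, h⟩
        refine ⟨⟨⟨s(x, y), by simpa using hne⟩, ?_, rfl⟩, hne⟩
        show (0 : Fin (m + 1)) ∈ s(x, y)
        rcases h with h | h
        · rw [h]; simp
        · rw [h]; simp
    rw [this]
    exact SimpleGraph.isTree_starGraph 0

/-- Explicit form: for every `k ≥ 1` the complete graph on `k + 1` vertices is
`k`-edge-connected, has a spanning tree, and each of its spanning trees `T` has a
cut with `4 k |δ_G(S)| ≤ (k+1)^2 |δ_T(S)|`. -/
theorem exists_no_thin (k : ℕ) (hk : 1 ≤ k) :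
    ∃ (V E : Type) (_ : Finite V) (_ : Finite E) (G : MGraph V E),
      Nat.card V = k + 1 ∧ G.EdgeConnected k ∧ (∃ T : Set E, G.IsSpanningTree T) ∧
      ∀ T : Set E, G.IsSpanningTree T → ∃ S : Set V, S.Nonempty ∧ S ≠ Set.univ ∧
        4 * k * (G.cut S).ncard ≤ (k + 1) ^ 2 * (G.cut S ∩ T).ncard := by
  refine ⟨Fin (k + 1), {e : Sym2 (Fin (k + 1)) // ¬ e.IsDiag}, inferInstance, inferInstance,
    completeMGraph (k + 1), by simp, ?_, completeMGraph_exists_spanningTree k, ?_⟩
  · have := completeMGraph_edgeConnected (k + 1)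
    simpa using this
  · intro T hT
    obtain ⟨S, hS, hS', hTS⟩ := hT.exists_cut_superset (completeMGraph (k + 1)) (by simp; omega)
    refine ⟨S, hS, hS', ?_⟩
    rw [Set.inter_eq_self_of_subset_right hTS, completeMGraph_cut_ncard]
    have hTcard : T.ncard = k := by
      have := hT.1
      simp only [Nat.card_eq_fintype_card, Fintype.card_fin] at this
      omega
    have hle : S.ncard ≤ k + 1 := by
      have := Set.ncard_le_card S
      simpa using this
    rw [hTcard]
    generalize S.ncard = a at hle ⊢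
    obtain ⟨r, hr⟩ : ∃ r, k + 1 = a + r := ⟨k + 1 - a, by omega⟩
    have h3 : k + 1 - a = r := by omega
    rw [h3, hr]
    have h4 : 4 * (a * r) ≤ (a + r) ^ 2 := by
      rcases le_total a r with h | h
      · obtain ⟨d, rfl⟩ := Nat.exists_eq_add_of_le h
        nlinarith
      · obtain ⟨d, rfl⟩ := Nat.exists_eq_add_of_le h
        nlinarith
    calc 4 * k * (a * r) = k * (4 * (a * r)) := by ring
      _ ≤ k * (a + r) ^ 2 := Nat.mul_le_mul_left _ h4
      _ = (a + r) ^ 2 * k := by ring

end Vale.Agent.Lib.P061
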