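import Vale.Agent.Lib.P061.Tree

namespace Vale.Agent.Lib.P061

/-- In the complete graph on `n ≥ 2` vertices, a spanning tree can only be `α`-thin
if `4 (n - 1) ≤ α n ^ 2`. -/
theorem completeMGraph_thin_bound (n : ℕ) (hn : 2 ≤ n)
    (T : Set {e : Sym2 (Fin n) // ¬ e.IsDiag}) (hT : (completeMGraph n).IsSpanningTree T)
    (α : ℝ) (hα : (completeMGraph n).IsThin α T) :
    4 * ((n : ℝ) - 1) ≤ α * (n : ℝ) ^ 2 := by
  obtain ⟨S, hS, hS', hTS⟩ := hT.exists_cut_superset (completeMGraph n) (by simpa using hn)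
  have h1 := hα S hS hS'
  rw [Set.inter_eq_self_of_subset_right hTS, completeMGraph_cut_ncard] at h1
  have hTcard : (T.ncard : ℝ) = (n : ℝ) - 1 := by
    have := hT.1
    simp only [Nat.card_eq_fintype_card, Fintype.card_fin] at this
    have h2 : ((T.ncard + 1 : ℕ) : ℝ) = (n : ℝ) := by exact_mod_cast this
    push_cast at h2
    linarith
  have hle : S.ncard ≤ n := by
    have := Set.ncard_le_card S
    simpa using this
  rw [hTcard] at h1
  push_cast [Nat.cast_sub hle] at h1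
  set s : ℝ := (S.ncard : ℝ) with hs
  have hs0 : 0 ≤ s := Nat.cast_nonneg _
  have hsn : s ≤ n := by rw [hs]; exact_mod_cast hle
  have hn2 : (2 : ℝ) ≤ n := by exact_mod_cast hn
  have hprod : 0 ≤ s * ((n : ℝ) - s) := mul_nonneg hs0 (by linarith)
  have hαpos : 0 < α := by
    by_contra hneg
    rw [not_lt] at hneg
    have : α * (s * ((n : ℝ) - s)) ≤ 0 := mul_nonpos_of_nonpos_of_nonneg hneg hprod
    linarith
  have h4 : 4 * (s * ((n : ℝ) - s)) ≤ (n : ℝ) ^ 2 := by nlinarith [sq_nonneg ((n : ℝ) - 2 * s)]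
  nlinarith

/-- Any constant `C` for which the strong thin tree conjecture holds is at least `4`. -/
theorem four_le_of_strong_thin_tree (C : ℝ)
    (h : ∀ k : ℕ, 1 ≤ k → ∀ (V E : Type) [Finite V] [Finite E] (G : MGraph V E),
      2 ≤ Nat.card V → G.EdgeConnected k →
      ∃ T : Set E, G.IsSpanningTree T ∧ G.IsThin (C / k) T) :
    4 ≤ C := by
  by_contra hC
  rw [not_le] at hC
  -- choose n with 8 / (4 - C) < n
  obtain ⟨m, hm⟩ := exists_nat_gt (8 / (4 - C))
  set n : ℕ := m + 2 with hn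
  have hn2 : 2 ≤ n := by omega
  obtain ⟨T, hT, hthin⟩ := h (n - 1) (by omega) (Fin n) {e : Sym2 (Fin n) // ¬ e.IsDiag}
    (completeMGraph n) (by simpa using hn2) (completeMGraph_edgeConnected n)
  have hb := completeMGraph_thin_bound n hn2 T hT _ hthin
  have hcast : ((n - 1 : ℕ) : ℝ) = (n : ℝ) - 1 := by
    rw [Nat.cast_sub (by omega)]; simp
  rw [hcast] at hb
  have hnr : (2 : ℝ) ≤ n := by exact_mod_cast hn2
  have hpos : (0 : ℝ) < (n : ℝ) - 1 := by linarith
  have hb2 : 4 * ((n : ℝ) - 1) ^ 2 ≤ C * (n : ℝ) ^ 2 := by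
    have : C / ((n : ℝ) - 1) * (n : ℝ) ^ 2 * ((n : ℝ) - 1) = C * (n : ℝ) ^ 2 := by
      field_simp
    nlinarith
  have h4C : 0 < 4 - C := by linarith
  have hmn : 8 / (4 - C) < (n : ℝ) := by
    have : (m : ℝ) < (n : ℝ) := by exact_mod_cast (by omega : m < n)
    linarith
  have h8 : 8 < (4 - C) * (n : ℝ) := by
    rw [div_lt_iff₀ h4C] at hmn
    linarith
  nlinarith

end Vale.Agent.Lib.P061
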