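import Vale.Agent.Lib.P061.Complete

namespace Vale.Agent.Lib.P061

variable {V E : Type}

/-- Every spanning tree lies entirely inside one cut: a side of its bipartition. -/
theorem MGraph.IsSpanningTree.exists_cut_superset [Finite V] [Finite E] (G : MGraph V E)
    {T : Set E} (hT : G.IsSpanningTree T) (hV : 2 ≤ Nat.card V) :
    ∃ S : Set V, S.Nonempty ∧ S ≠ Set.univ ∧ T ⊆ G.cut S := by
  classical
  obtain ⟨hcard, htree⟩ := hT
  have hconn := htree.connected
  set H := SimpleGraph.fromEdgeSet (G.ends '' T) with hH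
  obtain ⟨c⟩ := htree.colorable_two
  have hadj : ∀ e ∈ T, ∀ u v, G.ends e = s(u, v) → H.Adj u v := by
    intro e he u v huv
    rw [hH, SimpleGraph.fromEdgeSet_adj]
    refine ⟨⟨e, he, huv⟩, ?_⟩
    intro h
    apply G.loopless e
    rw [huv]
    exact Sym2.mk_isDiag_iff.mpr h
  -- two distinct vertices
  have : Nontrivial V := by
    rw [← Finite.one_lt_card_iff_nontrivial]; omega
  obtain ⟨a, b, hab⟩ := exists_pair_ne V
  obtain ⟨w⟩ := hconn.preconnected a b
  -- first step of a walk from a to b gives an edge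
  obtain ⟨x, y, hxy⟩ : ∃ x y, H.Adj x y := by
    cases w with
    | nil => exact absurd rfl hab
    | cons h _ => exact ⟨_, _, h⟩
  have hcxy : c x ≠ c y := c.valid hxy
  refine ⟨{v | c v = 0}, ?_, ?_, ?_⟩
  · by_cases hx : c x = 0
    · exact ⟨x, hx⟩
    · refine ⟨y, ?_⟩
      show c y = 0
      have : ∀ i j : Fin 2, i ≠ 0 → i ≠ j → j = 0 := by decide
      exact this _ _ hx hcxy
  · intro h
    have hx : c x = 0 := by
      have : x ∈ {v | c v = 0} := by rw [h]; trivial
      exact this
    have hy : c y = 0 := by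
      have : y ∈ {v | c v = 0} := by rw [h]; trivial
      exact this
    exact hcxy (hx.trans hy.symm)
  · intro e he
    induction hends : G.ends e using Sym2.ind with
    | _ u v =>
      have huv : c u ≠ c v := c.valid (hadj e he u v hends)
      by_cases hu : c u = 0
      · exact ⟨u, hu, v, fun hv => huv (hu.trans (Eq.symm hv)), hends⟩
      · refine ⟨v, ?_, u, hu, by rw [hends, Sym2.eq_swap]⟩
        have : ∀ i j : Fin 2, i ≠ 0 → i ≠ j → j = 0 := by decide
        exact this _ _ hu huv

end Vale.Agent.Lib.P061
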